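import Mathlib

namespace Vale.Agent.Results.P038.CartesianProducts

/-- The out-neighbourhood of `v` in the digraph with arc relation `A`. -/
def outNbr {V : Type} (A : V → V → Prop) (v : V) : Set V := {u | A v u}

/-- The second out-neighbourhood of `v`: the vertices at directed distance exactly two. -/
def outNbr2 {V : Type} (A : V → V → Prop) (v : V) : Set V :=
  {w | w ≠ v ∧ ¬ A v w ∧ ∃ u, A v u ∧ A u w}

/-- An oriented graph: no loops and no pair of opposite arcs. -/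
def Oriented {V : Type} (A : V → V → Prop) : Prop := ∀ u v, A u v → ¬ A v u

/-- The Cartesian product of two digraphs: an arc changes exactly one coordinate along an arc. -/
def cart {V W : Type} (A : V → V → Prop) (B : W → W → Prop) : V × W → V × W → Prop :=
  fun p q => (A p.1 q.1 ∧ p.2 = q.2) ∨ (p.1 = q.1 ∧ B p.2 q.2)

variable {V W : Type} {A : V → V → Prop} {B : W → W → Prop}

theorem irrefl_of_oriented (hA : Oriented A) (u : V) : ¬ A u u := fun h => hA u u h h

theorem cart_oriented (hA : Oriented A) (hB : Oriented B) : Oriented (cart A B) := by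
  rintro ⟨u, v⟩ ⟨x, y⟩ h h'
  simp only [cart] at h h'
  rcases h with ⟨h1, h2⟩ | ⟨h1, h2⟩ <;> rcases h' with ⟨h3, h4⟩ | ⟨h3, h4⟩
  · exact hA _ _ h1 h3
  · subst h3; exact irrefl_of_oriented hA _ h1
  · subst h1; exact irrefl_of_oriented hA _ h3
  · exact hB _ _ h2 h4

theorem outNbr_cart (u : V) (v : W) :
    outNbr (cart A B) (u, v) = (outNbr A u ×ˢ {v}) ∪ ({u} ×ˢ outNbr B v) := by
  ext ⟨x, y⟩
  simp only [outNbr, cart, Set.mem_ofPred_eq, Set.mem_union, Set.mem_prod, Set.mem_singleton_iff]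
  constructor
  · rintro (⟨h1, h2⟩ | ⟨h1, h2⟩)
    · exact Or.inl ⟨h1, h2.symm⟩
    · exact Or.inr ⟨h1.symm, h2⟩
  · rintro (⟨h1, h2⟩ | ⟨h1, h2⟩)
    · exact Or.inl ⟨h1, h2.symm⟩
    · exact Or.inr ⟨h1.symm, h2⟩

theorem outNbr2_cart (hA : Oriented A) (hB : Oriented B) (u : V) (v : W) :
    outNbr2 (cart A B) (u, v) =
      ((outNbr2 A u ×ˢ {v}) ∪ ({u} ×ˢ outNbr2 B v)) ∪ (outNbr A u ×ˢ outNbr B v) := by
  ext ⟨x, y⟩
  simp only [outNbr2, outNbr, Set.mem_ofPred_eq, Set.mem_union, Set.mem_prod,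
    Set.mem_singleton_iff]
  constructor
  · rintro ⟨hne, hnot, ⟨m, n⟩, h1, h2⟩
    simp only [cart] at h1 h2 hnot
    rcases h1 with ⟨h1, h1'⟩ | ⟨h1, h1'⟩ <;> rcases h2 with ⟨h2, h2'⟩ | ⟨h2, h2'⟩
    · -- A u m, v = n, A m x, n = y
      subst h1'; subst h2'
      refine Or.inl (Or.inl ⟨⟨?_, ?_, m, h1, h2⟩, rfl⟩)
      · rintro rfl; exact hne rfl
      · intro h; exact hnot (Or.inl ⟨h, rfl⟩)
    · -- A u m, v = n, m = x, B n y
      subst h1'; subst h2
      exact Or.inr ⟨h1, h2'⟩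
    · -- u = m, B v n, A m x, n = y
      subst h1; subst h2'
      exact Or.inr ⟨h2, h1'⟩
    · -- u = m, B v n, m = x, B n y
      subst h1; subst h2
      refine Or.inl (Or.inr ⟨rfl, ?_, ?_, n, h1', h2'⟩)
      · rintro rfl; exact hne rfl
      · intro h; exact hnot (Or.inr ⟨rfl, h⟩)
  · rintro ((⟨⟨hne, hnot, m, h1, h2⟩, rfl⟩ | ⟨rfl, hne, hnot, n, h1, h2⟩) | ⟨h1, h2⟩)
    · refine ⟨?_, ?_, (m, y), ?_, ?_⟩
      · intro h; exact hne (congrArg Prod.fst h)
      · simp only [cart]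
        rintro (⟨h, -⟩ | ⟨h, -⟩)
        · exact hnot h
        · exact hne h.symm
      · exact Or.inl ⟨h1, rfl⟩
      · exact Or.inl ⟨h2, rfl⟩
    · refine ⟨?_, ?_, (x, n), ?_, ?_⟩
      · intro h; exact hne (congrArg Prod.snd h)
      · simp only [cart]
        rintro (⟨-, h⟩ | ⟨-, h⟩)
        · exact hne h.symm
        · exact hnot h
      · exact Or.inr ⟨rfl, h1⟩
      · exact Or.inr ⟨rfl, h2⟩
    · refine ⟨?_, ?_, (x, v), ?_, ?_⟩
      · intro h
        have : x = u := congrArg Prod.fst h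
        subst this
        exact irrefl_of_oriented hA _ h1
      · simp only [cart]
        rintro (⟨-, h⟩ | ⟨h, -⟩)
        · subst h; exact irrefl_of_oriented hB _ h2
        · subst h; exact irrefl_of_oriented hA _ h1
      · exact Or.inl ⟨h1, rfl⟩
      · exact Or.inr ⟨rfl, h2⟩

theorem ncard_outNbr_cart [Finite V] [Finite W] (hA : Oriented A) (u : V) (v : W) :
    (outNbr (cart A B) (u, v)).ncard = (outNbr A u).ncard + (outNbr B v).ncard := by
  rw [outNbr_cart, Set.ncard_union_eq, Set.ncard_prod, Set.ncard_prod, Set.ncard_singleton,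
    Set.ncard_singleton, mul_one, one_mul]
  rw [Set.disjoint_left]
  rintro ⟨x, y⟩ ⟨h1, -⟩ ⟨h2, -⟩
  simp only [outNbr, Set.mem_ofPred_eq, Set.mem_singleton_iff] at h1 h2
  subst h2
  exact irrefl_of_oriented hA _ h1

theorem ncard_outNbr2_cart [Finite V] [Finite W] (hA : Oriented A) (hB : Oriented B)
    (u : V) (v : W) :
    (outNbr2 (cart A B) (u, v)).ncard =
      (outNbr2 A u).ncard + (outNbr2 B v).ncard + (outNbr A u).ncard * (outNbr B v).ncard := by
  rw [outNbr2_cart hA hB, Set.ncard_union_eq, Set.ncard_union_eq, Set.ncard_prod, Set.ncard_prod,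
    Set.ncard_prod, Set.ncard_singleton, Set.ncard_singleton, mul_one, one_mul]
  · rw [Set.disjoint_left]
    rintro ⟨x, y⟩ ⟨h1, -⟩ ⟨h2, -⟩
    simp only [outNbr2, Set.mem_ofPred_eq, Set.mem_singleton_iff] at h1 h2
    exact h1.1 h2
  · rw [Set.disjoint_left]
    rintro ⟨x, y⟩ (⟨-, h1⟩ | ⟨h1, -⟩) ⟨h2, h3⟩
    · simp only [outNbr, Set.mem_ofPred_eq, Set.mem_singleton_iff] at h1 h3
      subst h1
      exact irrefl_of_oriented hB _ h3
    · simp only [outNbr, Set.mem_ofPred_eq, Set.mem_singleton_iff] at h1 h2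
      subst h1
      exact irrefl_of_oriented hA _ h2

/-- In a finite oriented graph without sinks, a vertex of minimum out-degree has a nonempty
out-neighbourhood and a nonempty second out-neighbourhood. -/
theorem exists_good [Finite V] [Nonempty V] (hA : Oriented A) (hns : ∀ v, ∃ w, A v w) :
    ∃ v, 1 ≤ (outNbr A v).ncard ∧ 1 ≤ (outNbr2 A v).ncard := by
  obtain ⟨v, hv⟩ := Finite.exists_min (fun v => (outNbr A v).ncard)
  obtain ⟨y, hy⟩ := hns v
  refine ⟨v, (Set.ncard_pos).mpr ⟨y, hy⟩, ?_⟩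
  by_contra hcon
  have hsub : outNbr A y ⊆ outNbr A v := by
    intro z hz
    by_contra hz'
    apply hcon
    refine (Set.ncard_pos).mpr ⟨z, ?_, hz', y, hy, hz⟩
    rintro rfl
    exact hA _ _ hy hz
  have hss : outNbr A y ⊂ outNbr A v :=
    ⟨hsub, fun h => irrefl_of_oriented hA y (h hy)⟩
  have hlt := Set.ncard_lt_ncard hss
  exact absurd (hv y) (not_le.mpr hlt)

theorem seymour_of_pos [Finite V] [Finite W] (hA : Oriented A) (hB : Oriented B) (u : V) (v : W)
    (ha : 1 ≤ (outNbr A u).ncard) (hb : 1 ≤ (outNbr B v).ncard)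
    (h2 : 1 ≤ (outNbr2 A u).ncard + (outNbr2 B v).ncard) :
    (outNbr (cart A B) (u, v)).ncard ≤ (outNbr2 (cart A B) (u, v)).ncard := by
  rw [ncard_outNbr_cart hA, ncard_outNbr2_cart hA hB]
  obtain ⟨a, ha'⟩ := Nat.exists_eq_add_of_le ha
  obtain ⟨b, hb'⟩ := Nat.exists_eq_add_of_le hb
  rw [ha', hb']
  nlinarith [Nat.zero_le (a * b)]

theorem exists_seymour [Finite V] [Finite W] (hA : Oriented A) (hB : Oriented B)
    (hA1 : ∃ u u', A u u') (hB1 : ∃ v v', B v v') :
    ∃ p : V × W, (outNbr (cart A B) p).ncard ≤ (outNbr2 (cart A B) p).ncard := by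
  obtain ⟨u0, u1, hu⟩ := hA1
  obtain ⟨v0, v1, hv⟩ := hB1
  have : Nonempty V := ⟨u0⟩
  have : Nonempty W := ⟨v0⟩
  by_cases hsA : ∀ u, ∃ w, A u w
  · obtain ⟨u, h1, h2⟩ := exists_good hA hsA
    exact ⟨(u, v0), seymour_of_pos hA hB u v0 h1 ((Set.ncard_pos).mpr ⟨v1, hv⟩) (by omega)⟩
  by_cases hsB : ∀ v, ∃ w, B v w
  · obtain ⟨v, h1, h2⟩ := exists_good hB hsB
    exact ⟨(u0, v), seymour_of_pos hA hB u0 v ((Set.ncard_pos).mpr ⟨u1, hu⟩) h1 (by omega)⟩
  push Not at hsA hsB
  obtain ⟨u, hu'⟩ := hsA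
  obtain ⟨v, hv'⟩ := hsB
  refine ⟨(u, v), ?_⟩
  rw [ncard_outNbr_cart hA]
  have e1 : outNbr A u = ∅ := Set.eq_empty_of_forall_notMem hu'
  have e2 : outNbr B v = ∅ := Set.eq_empty_of_forall_notMem hv'
  simp [e1, e2]

/-- Seymour vertices of Cartesian products of finite oriented graphs. -/
theorem result :
    (∀ (V W : Type) (A : V → V → Prop) (B : W → W → Prop),
      Oriented A → Oriented B → Oriented (cart A B)) ∧
    (∀ (V W : Type) [Finite V] [Finite W] (A : V → V → Prop) (B : W → W → Prop),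
      Oriented A → Oriented B → ∀ (u : V) (v : W),
        (outNbr (cart A B) (u, v)).ncard = (outNbr A u).ncard + (outNbr B v).ncard ∧
        (outNbr2 (cart A B) (u, v)).ncard =
          (outNbr2 A u).ncard + (outNbr2 B v).ncard
            + (outNbr A u).ncard * (outNbr B v).ncard) ∧
    (∀ (V W : Type) [Finite V] [Finite W] (A : V → V → Prop) (B : W → W → Prop),
      Oriented A → Oriented B → (∃ u u', A u u') → (∃ v v', B v v') →
        ∃ p : V × W, (outNbr (cart A B) p).ncard ≤ (outNbr2 (cart A B) p).ncard) ∧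
    (∀ (V W : Type) [Finite V] [Finite W] (A : V → V → Prop) (B : W → W → Prop),
      Oriented A → Oriented B → ∀ (u : V) (v : W),
        2 ≤ (outNbr A u).ncard → 2 ≤ (outNbr B v).ncard →
          (outNbr (cart A B) (u, v)).ncard ≤ (outNbr2 (cart A B) (u, v)).ncard) ∧
    (∀ (V W : Type) [Finite V] [Finite W] (A : V → V → Prop) (B : W → W → Prop),
      Oriented A → Oriented B → ∀ (u : V) (v : W),
        (outNbr A u).ncard ≤ (outNbr2 A u).ncard → (outNbr B v).ncard ≤ (outNbr2 B v).ncard →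
          (outNbr (cart A B) (u, v)).ncard ≤ (outNbr2 (cart A B) (u, v)).ncard) := by
  refine ⟨fun V W A B hA hB => cart_oriented hA hB,
    fun V W _ _ A B hA hB u v => ⟨ncard_outNbr_cart hA u v, ncard_outNbr2_cart hA hB u v⟩,
    fun V W _ _ A B hA hB hA1 hB1 => exists_seymour hA hB hA1 hB1, ?_, ?_⟩
  · intro V W _ _ A B hA hB u v ha hb
    rw [ncard_outNbr_cart hA, ncard_outNbr2_cart hA hB]
    obtain ⟨a, ha'⟩ := Nat.exists_eq_add_of_le ha
    obtain ⟨b, hb'⟩ := Nat.exists_eq_add_of_le hb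
    rw [ha', hb']
    nlinarith [Nat.zero_le (a * b), Nat.zero_le ((outNbr2 A u).ncard),
      Nat.zero_le ((outNbr2 B v).ncard)]
  · intro V W _ _ A B hA hB u v ha hb
    rw [ncard_outNbr_cart hA, ncard_outNbr2_cart hA hB]
    have := Nat.zero_le ((outNbr A u).ncard * (outNbr B v).ncard)
    omega

end Vale.Agent.Results.P038.CartesianProducts
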