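import Mathlib
import Vale.Agent.Results.P038.CartesianProducts

namespace Vale.Agent.Results.P038.ProductFamilies

open Vale.Agent.Results.P038.CartesianProducts

/-- The strong product of two digraphs: an arc moves along an arc in one coordinate or in both. -/
def strong {V W : Type} (A : V → V → Prop) (B : W → W → Prop) : V × W → V × W → Prop :=
  fun p q => (A p.1 q.1 ∧ p.2 = q.2) ∨ (p.1 = q.1 ∧ B p.2 q.2) ∨ (A p.1 q.1 ∧ B p.2 q.2)

variable {V W : Type} {A : V → V → Prop} {B : W → W → Prop}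

theorem strong_oriented (hA : Oriented A) (hB : Oriented B) : Oriented (strong A B) := by
  rintro ⟨u, v⟩ ⟨x, y⟩ h h'
  simp only [strong] at h h'
  have e1 : A u x ∨ u = x := by
    rcases h with ⟨a, -⟩ | ⟨a, -⟩ | ⟨a, -⟩
    exacts [Or.inl a, Or.inr a, Or.inl a]
  have e2 : B v y ∨ v = y := by
    rcases h with ⟨-, a⟩ | ⟨-, a⟩ | ⟨-, a⟩
    exacts [Or.inr a, Or.inl a, Or.inl a]
  have e3 : A x u ∨ x = u := by
    rcases h' with ⟨a, -⟩ | ⟨a, -⟩ | ⟨a, -⟩
    exacts [Or.inl a, Or.inr a, Or.inl a]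
  have e4 : B y v ∨ y = v := by
    rcases h' with ⟨-, a⟩ | ⟨-, a⟩ | ⟨-, a⟩
    exacts [Or.inr a, Or.inl a, Or.inl a]
  have hux : u = x := by
    rcases e1 with a | a
    · rcases e3 with b | b
      · exact absurd b (hA _ _ a)
      · subst b; exact absurd a (irrefl_of_oriented hA _)
    · exact a
  have hvy : v = y := by
    rcases e2 with a | a
    · rcases e4 with b | b
      · exact absurd b (hB _ _ a)
      · subst b; exact absurd a (irrefl_of_oriented hB _)
    · exact a
  subst hux; subst hvy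
  rcases h with ⟨a, -⟩ | ⟨-, a⟩ | ⟨a, -⟩
  · exact irrefl_of_oriented hA _ a
  · exact irrefl_of_oriented hB _ a
  · exact irrefl_of_oriented hA _ a

theorem outNbr_strong (u : V) (v : W) :
    outNbr (strong A B) (u, v) =
      ((outNbr A u ×ˢ {v}) ∪ ({u} ×ˢ outNbr B v)) ∪ (outNbr A u ×ˢ outNbr B v) := by
  ext ⟨x, y⟩
  simp only [outNbr, strong, Set.mem_ofPred_eq, Set.mem_union, Set.mem_prod,
    Set.mem_singleton_iff]
  constructor
  · rintro (⟨h1, h2⟩ | ⟨h1, h2⟩ | ⟨h1, h2⟩)
    · exact Or.inl (Or.inl ⟨h1, h2.symm⟩)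
    · exact Or.inl (Or.inr ⟨h1.symm, h2⟩)
    · exact Or.inr ⟨h1, h2⟩
  · rintro ((⟨h1, h2⟩ | ⟨h1, h2⟩) | ⟨h1, h2⟩)
    · exact Or.inl ⟨h1, h2.symm⟩
    · exact Or.inr (Or.inl ⟨h1.symm, h2⟩)
    · exact Or.inr (Or.inr ⟨h1, h2⟩)

theorem ncard_outNbr_strong [Finite V] [Finite W] (hA : Oriented A) (hB : Oriented B)
    (u : V) (v : W) :
    (outNbr (strong A B) (u, v)).ncard =
      (outNbr A u).ncard + (outNbr B v).ncard + (outNbr A u).ncard * (outNbr B v).ncard := by
  rw [outNbr_strong, Set.ncard_union_eq, Set.ncard_union_eq, Set.ncard_prod, Set.ncard_prod,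
    Set.ncard_prod, Set.ncard_singleton, Set.ncard_singleton, mul_one, one_mul]
  · rw [Set.disjoint_left]
    rintro ⟨x, y⟩ ⟨h1, -⟩ ⟨h2, -⟩
    simp only [outNbr, Set.mem_ofPred_eq, Set.mem_singleton_iff] at h1 h2
    subst h2
    exact irrefl_of_oriented hA _ h1
  · rw [Set.disjoint_left]
    rintro ⟨x, y⟩ (⟨-, h1⟩ | ⟨h1, -⟩) ⟨h2, h3⟩
    · simp only [outNbr, Set.mem_ofPred_eq, Set.mem_singleton_iff] at h1 h3
      subst h1
      exact irrefl_of_oriented hB _ h3
    · simp only [outNbr, Set.mem_ofPred_eq, Set.mem_singleton_iff] at h1 h2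
      subst h1
      exact irrefl_of_oriented hA _ h2

theorem subset_outNbr2_strong (u : V) (v : W) :
    (outNbr2 A u ×ˢ (({v} ∪ outNbr B v) ∪ outNbr2 B v)) ∪
        (({u} ∪ outNbr A u) ×ˢ outNbr2 B v) ⊆ outNbr2 (strong A B) (u, v) := by
  rintro ⟨x, y⟩ (⟨⟨hne, hnot, m, h1, h2⟩, hy⟩ | ⟨hx, ⟨hne, hnot, n, h1, h2⟩⟩)
  · have hfst : ¬ strong A B (u, v) (x, y) := by
      simp only [strong]
      rintro (⟨h, -⟩ | ⟨h, -⟩ | ⟨h, -⟩)
      · exact hnot h
      · exact hne h.symm
      · exact hnot h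
    have hneq : (x, y) ≠ (u, v) := fun h => hne (congrArg Prod.fst h)
    rcases hy with (hy | hy) | hy
    · simp only [Set.mem_singleton_iff] at hy
      subst hy
      exact ⟨hneq, hfst, (m, y), Or.inl ⟨h1, rfl⟩, Or.inl ⟨h2, rfl⟩⟩
    · exact ⟨hneq, hfst, (m, y), Or.inr (Or.inr ⟨h1, hy⟩), Or.inl ⟨h2, rfl⟩⟩
    · obtain ⟨-, -, n, h3, h4⟩ := hy
      exact ⟨hneq, hfst, (m, n), Or.inr (Or.inr ⟨h1, h3⟩), Or.inr (Or.inr ⟨h2, h4⟩)⟩
  · have hfst : ¬ strong A B (u, v) (x, y) := by
      simp only [strong]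
      rintro (⟨-, h⟩ | ⟨-, h⟩ | ⟨-, h⟩)
      · exact hne h.symm
      · exact hnot h
      · exact hnot h
    have hneq : (x, y) ≠ (u, v) := fun h => hne (congrArg Prod.snd h)
    rcases hx with hx | hx
    · simp only [Set.mem_singleton_iff] at hx
      subst hx
      exact ⟨hneq, hfst, (x, n), Or.inr (Or.inl ⟨rfl, h1⟩), Or.inr (Or.inl ⟨rfl, h2⟩)⟩
    · exact ⟨hneq, hfst, (x, n), Or.inr (Or.inr ⟨hx, h1⟩), Or.inr (Or.inl ⟨rfl, h2⟩)⟩

theorem ncard_outNbr2_strong_ge [Finite V] [Finite W] (hA : Oriented A) (hB : Oriented B)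
    (u : V) (v : W) :
    (outNbr2 A u).ncard * (1 + (outNbr B v).ncard + (outNbr2 B v).ncard)
        + (1 + (outNbr A u).ncard) * (outNbr2 B v).ncard
      ≤ (outNbr2 (strong A B) (u, v)).ncard := by
  refine le_trans (le_of_eq ?_) (Set.ncard_le_ncard (subset_outNbr2_strong u v))
  have hb1 : ({v} ∪ outNbr B v).ncard = 1 + (outNbr B v).ncard := by
    rw [Set.ncard_union_eq, Set.ncard_singleton]
    rw [Set.disjoint_left]
    intro z hz1 hz2
    simp only [Set.mem_singleton_iff] at hz1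
    subst hz1
    exact irrefl_of_oriented hB _ hz2
  have hb2 : (({v} ∪ outNbr B v) ∪ outNbr2 B v).ncard
      = 1 + (outNbr B v).ncard + (outNbr2 B v).ncard := by
    rw [Set.ncard_union_eq, hb1]
    rw [Set.disjoint_left]
    rintro z (hz1 | hz1) ⟨hz2, hz3, -⟩
    · exact hz2 hz1
    · exact hz3 hz1
  have ha1 : ({u} ∪ outNbr A u).ncard = 1 + (outNbr A u).ncard := by
    rw [Set.ncard_union_eq, Set.ncard_singleton]
    rw [Set.disjoint_left]
    intro z hz1 hz2
    simp only [Set.mem_singleton_iff] at hz1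
    subst hz1
    exact irrefl_of_oriented hA _ hz2
  rw [Set.ncard_union_eq, Set.ncard_prod, Set.ncard_prod, hb2, ha1]
  rw [Set.disjoint_left]
  rintro ⟨x, y⟩ ⟨⟨hz2, hz3, -⟩, -⟩ ⟨hz1 | hz1, -⟩
  · exact hz2 hz1
  · exact hz3 hz1

/-- In a finite oriented graph every nonempty vertex set `S` has a member with fewer than half of
the other members of `S` as out-neighbours. -/
theorem exists_small_inside [Finite V] (hA : Oriented A) (S : Set V) (hS : S.Nonempty) :
    ∃ y ∈ S, 2 * (outNbr A y ∩ S).ncard + 1 ≤ S.ncard := by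
  classical
  have : Fintype V := Fintype.ofFinite V
  set T : Finset V := (Set.toFinite S).toFinset with hT
  have hmem : ∀ x, x ∈ T ↔ x ∈ S := fun x => Set.Finite.mem_toFinset _
  have hcard : S.ncard = T.card := Set.ncard_eq_toFinset_card S (Set.toFinite S)
  have hin : ∀ y, (outNbr A y ∩ S).ncard = (T.filter (fun z => A y z)).card := by
    intro y
    rw [← Set.ncard_coe_finset]
    congr 1
    ext z
    simp [outNbr, hmem, and_comm]
  by_contra hcon
  push Not at hcon
  have h1 : ∀ y ∈ T, T.card ≤ 2 * (T.filter (fun z => A y z)).card := by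
    intro y hy
    have := hcon y ((hmem y).mp hy)
    rw [hin, hcard] at this
    omega
  have h2 : ∑ y ∈ T, T.card ≤ ∑ y ∈ T, 2 * (T.filter (fun z => A y z)).card :=
    Finset.sum_le_sum h1
  have hswap : ∑ y ∈ T, (T.filter (fun z => A y z)).card
      = ∑ y ∈ T, (T.filter (fun z => A z y)).card := by
    simp only [Finset.card_filter]
    exact Finset.sum_comm
  have h3 : ∑ y ∈ T, 2 * (T.filter (fun z => A y z)).card ≤ ∑ y ∈ T, (T.card - 1) := by
    calc ∑ y ∈ T, 2 * (T.filter (fun z => A y z)).card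
        = ∑ y ∈ T, ((T.filter (fun z => A y z)).card + (T.filter (fun z => A z y)).card) := by
          rw [Finset.sum_add_distrib, ← hswap, ← Finset.mul_sum]; ring
      _ ≤ ∑ y ∈ T, (T.card - 1) := by
          apply Finset.sum_le_sum
          intro y hy
          have hdis : Disjoint (T.filter (fun z => A y z)) (T.filter (fun z => A z y)) := by
            rw [Finset.disjoint_left]
            intro z hz1 hz2
            simp only [Finset.mem_filter] at hz1 hz2
            exact hA _ _ hz1.2 hz2.2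
          rw [← Finset.card_union_of_disjoint hdis, ← Finset.card_erase_of_mem hy]
          apply Finset.card_le_card
          intro z hz
          simp only [Finset.mem_union, Finset.mem_filter] at hz
          rw [Finset.mem_erase]
          refine ⟨?_, ?_⟩
          · rintro rfl
            rcases hz with ⟨-, h⟩ | ⟨-, h⟩ <;> exact irrefl_of_oriented hA _ h
          · rcases hz with ⟨h, -⟩ | ⟨h, -⟩ <;> exact h
  have h4 : T.card * T.card ≤ T.card * (T.card - 1) := by
    simpa [Finset.sum_const, smul_eq_mul] using h2.trans h3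
  have hpos : 0 < T.card := Finset.card_pos.mpr ⟨_, (hmem _).mpr hS.some_mem⟩
  have : T.card ≤ T.card - 1 := Nat.le_of_mul_le_mul_left h4 hpos
  omega

/-- In a finite oriented graph without sinks, a vertex `u` of minimum out-degree satisfies
`|N1(u)| + 1 ≤ 2 |N2(u)|`. -/
theorem exists_half [Finite V] [Nonempty V] (hA : Oriented A) (hns : ∀ v, ∃ w, A v w) :
    ∃ u, (outNbr A u).ncard + 1 ≤ 2 * (outNbr2 A u).ncard := by
  obtain ⟨u, hu⟩ := Finite.exists_min (fun v => (outNbr A v).ncard)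
  obtain ⟨y0, hy0⟩ := hns u
  obtain ⟨y, hyS, hy⟩ := exists_small_inside hA (outNbr A u) ⟨y0, hy0⟩
  refine ⟨u, ?_⟩
  have hsub : outNbr A y \ outNbr A u ⊆ outNbr2 A u := by
    rintro z ⟨hz1, hz2⟩
    refine ⟨?_, hz2, y, hyS, hz1⟩
    rintro rfl
    exact hA _ _ hyS hz1
  have h1 : (outNbr A y \ outNbr A u).ncard ≤ (outNbr2 A u).ncard := Set.ncard_le_ncard hsub
  have h2 := Set.ncard_inter_add_ncard_sdiff_eq_ncard (outNbr A y) (outNbr A u)
  have h3 := hu y
  omega

theorem seymour_strong_of_half [Finite V] [Finite W] (hA : Oriented A) (hB : Oriented B)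
    (u : V) (v : W)
    (ha : (outNbr A u).ncard + 1 ≤ 2 * (outNbr2 A u).ncard)
    (hb : (outNbr B v).ncard + 1 ≤ 2 * (outNbr2 B v).ncard) :
    (outNbr (strong A B) (u, v)).ncard ≤ (outNbr2 (strong A B) (u, v)).ncard := by
  refine le_trans ?_ (ncard_outNbr2_strong_ge hA hB u v)
  rw [ncard_outNbr_strong hA hB]
  have k1 := Nat.mul_le_mul_right (1 + (outNbr B v).ncard) ha
  have k2 := Nat.mul_le_mul_left (1 + (outNbr A u).ncard) hb
  nlinarith [Nat.zero_le ((outNbr2 A u).ncard * (outNbr2 B v).ncard)]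

theorem exists_seymour_strong [Finite V] [Finite W] [Nonempty V] [Nonempty W]
    (hA : Oriented A) (hB : Oriented B) (hsA : ∀ u, ∃ u', A u u') (hsB : ∀ v, ∃ v', B v v') :
    ∃ p : V × W, (outNbr (strong A B) p).ncard ≤ (outNbr2 (strong A B) p).ncard := by
  obtain ⟨u, hu⟩ := exists_half hA hsA
  obtain ⟨v, hv⟩ := exists_half hB hsB
  exact ⟨(u, v), seymour_strong_of_half hA hB u v hu hv⟩

/-- Seymour vertices in Cartesian and strong products of finite oriented graphs. -/
theorem result :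
    (∀ (V W : Type) (A : V → V → Prop) (B : W → W → Prop),
      Oriented A → Oriented B → Oriented (cart A B) ∧ Oriented (strong A B)) ∧
    (∀ (V W : Type) [Finite V] [Finite W] (A : V → V → Prop) (B : W → W → Prop),
      Oriented A → Oriented B → (∃ u u', A u u') → (∃ v v', B v v') →
        ∃ p : V × W, (outNbr (cart A B) p).ncard ≤ (outNbr2 (cart A B) p).ncard) ∧
    (∀ (V W : Type) [Finite V] [Finite W] [Nonempty V] [Nonempty W]
      (A : V → V → Prop) (B : W → W → Prop),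
      Oriented A → Oriented B → (∀ u, ∃ u', A u u') → (∀ v, ∃ v', B v v') →
        ∃ p : V × W, (outNbr (strong A B) p).ncard ≤ (outNbr2 (strong A B) p).ncard) ∧
    (∀ (V : Type) [Finite V] [Nonempty V] (A : V → V → Prop),
      Oriented A → (∀ u, ∃ u', A u u') →
        ∃ u, (outNbr A u).ncard + 1 ≤ 2 * (outNbr2 A u).ncard) ∧
    (∀ (V W : Type) [Finite V] [Finite W] (A : V → V → Prop) (B : W → W → Prop),
      Oriented A → Oriented B → ∀ (u : V) (v : W),
        (outNbr A u).ncard + 1 ≤ 2 * (outNbr2 A u).ncard →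
        (outNbr B v).ncard + 1 ≤ 2 * (outNbr2 B v).ncard →
          (outNbr (strong A B) (u, v)).ncard ≤ (outNbr2 (strong A B) (u, v)).ncard) :=
  ⟨fun _ _ _ _ hA hB => ⟨cart_oriented hA hB, strong_oriented hA hB⟩,
    fun _ _ _ _ _ _ hA hB hA1 hB1 => exists_seymour hA hB hA1 hB1,
    fun _ _ _ _ _ _ _ _ hA hB hsA hsB => exists_seymour_strong hA hB hsA hsB,
    fun _ _ _ _ hA hsA => exists_half hA hsA,
    fun _ _ _ _ _ _ hA hB u v ha hb => seymour_strong_of_half hA hB u v ha hb⟩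

end Vale.Agent.Results.P038.ProductFamilies
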